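import Mathlib

open Pointwise

namespace Vale.Agent.P126

/-- An origin-symmetric convex body in `ℝ^n`. -/
structure IsSymmBody {n : ℕ} (K : Set (EuclideanSpace ℝ (Fin n))) : Prop where
  compact : IsCompact K
  convex : Convex ℝ K
  interior_nonempty : (interior K).Nonempty
  symm : -K = K

/-- The least number of translates `x + B` whose union contains `A`. -/
noncomputable def coverNum {n : ℕ} (A B : Set (EuclideanSpace ℝ (Fin n))) : ℕ :=
  sInf {N : ℕ | ∃ s : Finset (EuclideanSpace ℝ (Fin n)), s.card = N ∧ A ⊆ ⋃ x ∈ s, x +ᵥ B}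

/-- The polar set. -/
def polar {n : ℕ} (K : Set (EuclideanSpace ℝ (Fin n))) : Set (EuclideanSpace ℝ (Fin n)) :=
  {y | ∀ x ∈ K, inner ℝ x y ≤ 1}

end Vale.Agent.P126
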