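import Vale.Agent.P126.Matrix
import Vale.Agent.P126.Defs

open Finset Pointwise Topology

namespace Vale.Agent.P126

open Classical

variable {n : ℕ}

lemma inner_eq (x y : EuclideanSpace ℝ (Fin n)) : inner ℝ x y = ∑ i, x i * y i := by
  simp [PiLp.inner_apply, mul_comm]

lemma mkBody {K : Set (EuclideanSpace ℝ (Fin n))} (h1 : IsClosed K) (h2 : Bornology.IsBounded K)
    (h3 : Convex ℝ K) (h4 : K ∈ 𝓝 (0 : EuclideanSpace ℝ (Fin n))) (h5 : ∀ x ∈ K, -x ∈ K) :
    IsSymmBody K :=
  ⟨Metric.isCompact_of_isClosed_isBounded h1 h2, h3, ⟨0, mem_interior_iff_mem_nhds.2 h4⟩, by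
    ext x
    exact ⟨fun hx => by simpa using h5 _ (Set.mem_neg.1 hx), fun hx => Set.mem_neg.2 (h5 x hx)⟩⟩

lemma polar_nhds {P : Set (EuclideanSpace ℝ (Fin n))} (h : Bornology.IsBounded P) :
    polar P ∈ 𝓝 (0 : EuclideanSpace ℝ (Fin n)) := by
  obtain ⟨R, hR, hP⟩ := h.exists_pos_norm_le
  refine Filter.mem_of_superset (Metric.closedBall_mem_nhds 0 (one_div_pos.2 hR)) ?_
  intro y hy x hx
  rw [mem_closedBall_zero_iff] at hy
  calc inner ℝ x y ≤ ‖x‖ * ‖y‖ := real_inner_le_norm _ _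
    _ ≤ R * (1 / R) := by gcongr; exact hP x hx
    _ = 1 := by field_simp

lemma polar_body {P : Set (EuclideanSpace ℝ (Fin n))} (h2 : Bornology.IsBounded P)
    (h4 : P ∈ 𝓝 (0 : EuclideanSpace ℝ (Fin n))) (h5 : ∀ x ∈ P, -x ∈ P) :
    IsSymmBody (polar P) := by
  refine mkBody ?_ ?_ ?_ (polar_nhds h2) ?_
  · have : polar P = ⋂ x ∈ P, {y | inner ℝ x y ≤ 1} := by ext y; simp [polar]
    rw [this]
    exact isClosed_biInter fun x _ => isClosed_le (by fun_prop) continuous_const
  · obtain ⟨ε, hε, hb⟩ := Metric.nhds_basis_closedBall.mem_iff.1 h4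
    refine (Metric.isBounded_closedBall (x := (0 : EuclideanSpace ℝ (Fin n)))
      (r := 1 / ε)).subset fun y hy => ?_
    rw [mem_closedBall_zero_iff]
    rcases eq_or_ne y 0 with rfl | hy0
    · simp [hε.le]
    · have hn : 0 < ‖y‖ := norm_pos_iff.2 hy0
      have := hy ((ε / ‖y‖) • y) (hb (by
        rw [mem_closedBall_zero_iff, norm_smul, Real.norm_of_nonneg (by positivity)]
        exact le_of_eq (by field_simp)))
      rw [real_inner_smul_left, real_inner_self_eq_norm_sq] at this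
      rw [le_div_iff₀ hε]
      calc ‖y‖ * ε = ε / ‖y‖ * ‖y‖ ^ 2 := by field_simp
        _ ≤ 1 := this
  · intro y hy z hz a b ha hb hab x hx
    rw [inner_add_right, real_inner_smul_right, real_inner_smul_right]
    have := hy x hx
    have := hz x hx
    nlinarith
  · intro y hy x hx
    have := hy _ (h5 x hx)
    rwa [inner_neg_left, ← inner_neg_right] at this

/-- The slab body of a matrix. -/
def slab {U : Type} (M : Fin n → U → ℝ) (t r : ℝ) : Set (EuclideanSpace ℝ (Fin n)) :=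
  {h | (∀ u, |∑ i, h i * M i u| ≤ t) ∧ ∑ i, |h i| ≤ r}

lemma norm_le_sum (x : EuclideanSpace ℝ (Fin n)) : ‖x‖ ≤ ∑ i, |x i| := by
  rw [EuclideanSpace.norm_eq]
  refine Real.sqrt_le_iff.2 ⟨sum_nonneg fun _ _ => abs_nonneg _, ?_⟩
  exact sum_sq_le_sq_sum_of_nonneg fun _ _ => abs_nonneg _

lemma slab_bounded {U : Type} (M : Fin n → U → ℝ) (t r : ℝ) : Bornology.IsBounded (slab M t r) :=
  (Metric.isBounded_closedBall (x := (0 : EuclideanSpace ℝ (Fin n))) (r := r)).subset
    fun y hy => mem_closedBall_zero_iff.2 ((norm_le_sum y).trans hy.2)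

lemma slab_nhds {U : Type} [Fintype U] (M : Fin n → U → ℝ) {t r : ℝ} (ht : 0 < t) (hr : 0 < r) :
    slab M t r ∈ 𝓝 (0 : EuclideanSpace ℝ (Fin n)) := by
  refine Filter.Eventually.and (Filter.eventually_all.2 fun u => ?_) ?_
  · have hc : Continuous fun h : EuclideanSpace ℝ (Fin n) => |∑ i, h i * M i u| := by fun_prop
    exact (hc.continuousAt.eventually_lt continuousAt_const (by simpa using ht)).mono
      fun _ h => h.le
  · have hc : Continuous fun h : EuclideanSpace ℝ (Fin n) => ∑ i, |h i| := by fun_prop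
    exact (hc.continuousAt.eventually_lt continuousAt_const (by simpa using hr)).mono
      fun _ h => h.le

lemma slab_neg {U : Type} (M : Fin n → U → ℝ) (t r : ℝ) : ∀ x ∈ slab M t r, -x ∈ slab M t r := by
  intro x hx
  refine ⟨fun u => ?_, by simpa using hx.2⟩
  simpa [abs_neg] using hx.1 u

lemma slab_body {U : Type} [Fintype U] (M : Fin n → U → ℝ) {t r : ℝ} (ht : 0 < t) (hr : 0 < r) :
    IsSymmBody (slab M t r) := by
  refine mkBody ?_ (slab_bounded M t r) ?_ (slab_nhds M ht hr) (slab_neg M t r)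
  · have : slab M t r = (⋂ u, {h | |∑ i, h i * M i u| ≤ t}) ∩ {h | ∑ i, |h i| ≤ r} := by
      ext y; simp [slab]
    rw [this]
    exact (isClosed_iInter fun u => isClosed_le (by fun_prop) continuous_const).inter
      (isClosed_le (by fun_prop) continuous_const)
  · intro y hy z hz a b ha hb hab
    refine ⟨fun u => ?_, ?_⟩
    · have e : ∑ i, (a • y + b • z) i * M i u =
          a * ∑ i, y i * M i u + b * ∑ i, z i * M i u := by
        rw [mul_sum, mul_sum, ← sum_add_distrib]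
        exact sum_congr rfl fun i _ => by simp; ring
      rw [e]
      refine (abs_add_le _ _).trans ?_
      rw [abs_mul, abs_mul, abs_of_nonneg ha, abs_of_nonneg hb]
      have h1 := mul_le_mul_of_nonneg_left (hy.1 u) ha
      have h2 := mul_le_mul_of_nonneg_left (hz.1 u) hb
      calc _ ≤ a * t + b * t := add_le_add h1 h2
        _ = t := by rw [← add_mul, hab, one_mul]
    · calc ∑ i, |(a • y + b • z) i| ≤ ∑ i, (a * |y i| + b * |z i|) := by
            refine sum_le_sum fun i _ => ?_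
            simp only [PiLp.add_apply, PiLp.smul_apply, smul_eq_mul]
            refine (abs_add_le _ _).trans ?_
            rw [abs_mul, abs_mul, abs_of_nonneg ha, abs_of_nonneg hb]
        _ = a * ∑ i, |y i| + b * ∑ i, |z i| := by rw [sum_add_distrib, mul_sum, mul_sum]
        _ ≤ a * r + b * r := add_le_add (mul_le_mul_of_nonneg_left hy.2 ha)
            (mul_le_mul_of_nonneg_left hz.2 hb)
        _ = r := by rw [← add_mul, hab, one_mul]

/-- The cross-polytope. -/
def cross (n : ℕ) : Set (EuclideanSpace ℝ (Fin n)) := slab (fun _ (_ : Empty) => 0) 1 1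

lemma mem_cross {x : EuclideanSpace ℝ (Fin n)} : x ∈ cross n ↔ ∑ i, |x i| ≤ 1 :=
  ⟨fun h => h.2, fun h => ⟨fun u => u.elim, h⟩⟩

lemma mem_polar_cross {y : EuclideanSpace ℝ (Fin n)} : y ∈ polar (cross n) ↔ ∀ i, |y i| ≤ 1 := by
  constructor
  · intro h i
    have h1 : EuclideanSpace.single i (1 : ℝ) ∈ cross n := by
      rw [mem_cross, sum_eq_single i] <;> simp +contextual
    have a1 := h _ h1
    have a2 := h _ (slab_neg _ _ _ _ h1)
    rw [inner_neg_left] at a2
    rw [EuclideanSpace.inner_single_left] at a1 a2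
    simp only [map_one, one_mul] at a1 a2
    rw [abs_le]; constructor <;> linarith
  · intro h x hx
    rw [inner_eq]
    refine le_trans (sum_le_sum fun i _ => ?_) (mem_cross.1 hx)
    calc x i * y i ≤ |x i * y i| := le_abs_self _
      _ = |x i| * |y i| := abs_mul _ _
      _ ≤ |x i| := mul_le_of_le_one_right (abs_nonneg _) (h i)

lemma polar_polar_cross : polar (polar (cross n)) ⊆ cross n := by
  intro y hy
  have := hy (WithLp.toLp 2 fun i => if 0 ≤ y i then (1 : ℝ) else -1)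
    (mem_polar_cross.2 fun i => by simp only; split_ifs <;> simp)
  rw [inner_eq] at this
  rw [mem_cross]
  refine le_trans (le_of_eq (sum_congr rfl fun i _ => ?_)) this
  simp only
  split_ifs with h
  · rw [abs_of_nonneg h, one_mul]
  · rw [abs_of_neg (not_le.1 h)]; ring

lemma coverNum_le {A B : Set (EuclideanSpace ℝ (Fin n))} (s : Finset (EuclideanSpace ℝ (Fin n)))
    (h : ∀ x ∈ A, ∃ z ∈ s, x - z ∈ B) : coverNum A B ≤ s.card :=
  Nat.sInf_le ⟨s, rfl, fun x hx => by
    obtain ⟨z, hz, hb⟩ := h x hx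
    exact Set.mem_biUnion hz ⟨x - z, hb, by simp⟩⟩

lemma le_coverNum {A B : Set (EuclideanSpace ℝ (Fin n))} (hA : IsCompact A)
    (hB : B ∈ 𝓝 (0 : EuclideanSpace ℝ (Fin n))) {U : Type} [Fintype U]
    (pt : U → EuclideanSpace ℝ (Fin n)) (hpt : ∀ u, pt u ∈ A) (R : U → U → Prop) (c : ℕ)
    (hc : ∀ u0, (univ.filter fun u => R u u0).card ≤ c)
    (hR : ∀ u u0, ∀ b ∈ B, ∀ b0 ∈ B, pt u - pt u0 = b - b0 → R u u0) :
    Fintype.card U ≤ coverNum A B * c := by
  have hne : {N : ℕ | ∃ s : Finset (EuclideanSpace ℝ (Fin n)), s.card = N ∧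
      A ⊆ ⋃ x ∈ s, x +ᵥ B}.Nonempty := by
    obtain ⟨s, -, hs⟩ := hA.elim_nhds_subcover (fun x => x +ᵥ B) (fun x _ => by
      simpa using vadd_mem_nhds_vadd x hB)
    exact ⟨_, s, rfl, hs⟩
  obtain ⟨s, hs, hcov⟩ := Nat.sInf_mem hne
  have : ∀ u, ∃ z ∈ s, ∃ b ∈ B, z + b = pt u := by
    intro u
    obtain ⟨z, hz, b, hb, e⟩ := Set.mem_iUnion₂.1 (hcov (hpt u))
    exact ⟨z, hz, b, hb, e⟩
  choose z hz b hb e using this
  rw [coverNum, ← hs, mul_comm, ← card_univ]
  refine card_le_mul_card_image_of_maps_to (f := z) (fun u _ => hz u) c fun x _ => ?_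
  rcases (univ.filter fun u => z u = x).eq_empty_or_nonempty with he | ⟨u0, hu0⟩
  · rw [he]; simp
  · refine le_trans (card_le_card fun u hu => mem_filter.2 ⟨mem_univ _, ?_⟩) (hc u0)
    refine hR u u0 _ (hb u) _ (hb u0) ?_
    rw [← e u, ← e u0, (mem_filter.1 hu).2, (mem_filter.1 hu0).2]
    abel

end Vale.Agent.P126
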