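import Vale.Agent.P126.Sys

open Finset

namespace Vale.Agent.P126

open Classical

lemma exists_centres {Y : Type} [Fintype Y] (w : Y → ℝ) (hw : ∀ y, 0 ≤ w y) (hs : ∑ y, w y ≤ 1)
    (Nb : Y → Finset Y) (κ : ℝ) (hκ : 0 < κ) :
    ∃ T : Finset Y, (T.card : ℝ) * κ ≤ 1 ∧
      ∀ y, κ ≤ ∑ z ∈ Nb y, w z → ∃ s ∈ T, ∃ z, z ∈ Nb y ∧ z ∈ Nb s := by
  let F : Finset (Finset Y) := univ.filter fun T =>
    (∀ s ∈ T, κ ≤ ∑ z ∈ Nb s, w z) ∧ (T : Set Y).PairwiseDisjoint Nb
  obtain ⟨T, hT, hmax⟩ := F.exists_max_image Finset.card ⟨∅, by simp [F]⟩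
  simp only [F, mem_filter, mem_univ, true_and] at hT hmax
  refine ⟨T, ?_, ?_⟩
  · calc (T.card : ℝ) * κ = ∑ _s ∈ T, κ := by simp
      _ ≤ ∑ s ∈ T, ∑ z ∈ Nb s, w z := sum_le_sum hT.1
      _ = ∑ z ∈ T.biUnion Nb, w z := (sum_biUnion hT.2).symm
      _ ≤ ∑ z, w z := sum_le_sum_of_subset_of_nonneg (subset_univ _) (fun z _ _ => hw z)
      _ ≤ 1 := hs
  · intro y hy
    by_contra hcon
    push Not at hcon
    have hyT : y ∉ T := by
      intro hyT
      have : Nb y = ∅ := by
        rw [Finset.eq_empty_iff_forall_notMem]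
        intro z hz
        exact hcon y hyT z hz hz
      rw [this] at hy
      simp at hy
      linarith
    have := hmax (insert y T) ⟨by
      intro s hs
      rcases mem_insert.1 hs with rfl | hs
      · exact hy
      · exact hT.1 s hs, by
      rw [coe_insert]
      refine hT.2.insert ?_
      intro s hs _
      rw [Finset.disjoint_left]
      intro z hz hz'
      exact hcon s hs z hz hz'⟩
    rw [card_insert_of_notMem hyT] at this
    omega

variable {X J : Type} [Fintype X] [Fintype J] (lev : J → ℕ) (C : J → Finset X)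

/-- `G` contains an admissible intersection of windows of level below `l`. -/
def Good (τ : Finset J) (l : ℕ) (G : X → Prop) : Prop :=
  ∃ S : Finset J, Disjoint S τ ∧ (∀ j ∈ S, lev j < l) ∧ S.card ≤ 6 ^ l ∧
    ∀ c, (∀ j ∈ S, c ∈ C j) → G c

abbrev Row (lev : J → ℕ) (g : ℕ) (X Q : Type) : Type :=
  {τ : Finset J // Valid lev g τ} × (X → Option Q)

def Cap {g : ℕ} {Q : Type} (l : ℕ) (y z : Row lev g X Q) : Prop :=
  (y.1.1.filter fun j => lev j < l) = (z.1.1.filter fun j => lev j < l) ∧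
    ∃ S : Finset J, Disjoint S y.1.1 ∧ (∀ j ∈ S, lev j < l) ∧ S.card ≤ 2 * 6 ^ l ∧
      ∀ c, (∀ j ∈ S, c ∈ C j) → y.2 c = z.2 c

omit [Fintype J] in
lemma disjoint_of_filter_eq {τ σ S : Finset J} {l : ℕ}
    (h : (τ.filter fun j => lev j < l) = (σ.filter fun j => lev j < l))
    (hS : ∀ j ∈ S, lev j < l) (hd : Disjoint S σ) : Disjoint S τ := by
  rw [Finset.disjoint_left] at hd ⊢
  intro j hj hjτ
  have : j ∈ σ.filter fun j => lev j < l := h ▸ mem_filter.2 ⟨hjτ, hS j hj⟩
  exact hd hj (mem_filter.1 this).1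

lemma unpopular_le {g : ℕ} {Q : Type} [Fintype Q] (l : ℕ) (w : Row lev g X Q → ℝ)
    (hw : ∀ y, 0 ≤ w y) (κ : ℝ) (hκ : 0 < κ) (u : X → Q) :
    ∑ y ∈ univ.filter (fun y : Row lev g X Q => Good lev C y.1.1 l (fun c => y.2 c = some (u c)) ∧
      ¬ κ ≤ ∑ z ∈ univ.filter (Cap lev C l y), w z), w y ≤ 2 ^ cnt lev l * κ := by
  set A := univ.filter (fun y : Row lev g X Q => Good lev C y.1.1 l (fun c => y.2 c = some (u c)) ∧
      ¬ κ ≤ ∑ z ∈ univ.filter (Cap lev C l y), w z) with hA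
  let P : Finset (Finset J) := (univ.filter fun j => lev j < l).powerset
  rw [← sum_fiberwise_of_maps_to (t := P) (g := fun y : Row lev g X Q =>
    y.1.1.filter fun j => lev j < l) (fun y _ => mem_powerset.2 (filter_subset_filter _
      (subset_univ _)))]
  calc _ ≤ ∑ _π ∈ P, κ := by
        refine sum_le_sum fun π _ => ?_
        rcases (A.filter fun y => (y.1.1.filter fun j => lev j < l) = π).eq_empty_or_nonempty
          with he | ⟨y0, hy0⟩
        · rw [he]; simpa using hκ.le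
        · obtain ⟨hy0A, hy0π⟩ := mem_filter.1 hy0
          obtain ⟨-, ⟨S0, hd0, hl0, hc0, hG0⟩, hlt⟩ := mem_filter.1 hy0A
          refine le_trans (sum_le_sum_of_subset_of_nonneg ?_ (fun z _ _ => hw z)) (not_le.1 hlt).le
          intro y hy
          obtain ⟨hyA, hyπ⟩ := mem_filter.1 hy
          obtain ⟨-, ⟨S, hd, hl, hc, hG⟩, -⟩ := mem_filter.1 hyA
          refine mem_filter.2 ⟨mem_univ _, hy0π.trans hyπ.symm, S0 ∪ S, ?_, ?_, ?_, ?_⟩
          · exact disjoint_union_left.2 ⟨hd0, disjoint_of_filter_eq lev (hy0π.trans hyπ.symm) hl hd⟩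
          · intro j hj
            rcases mem_union.1 hj with hj | hj
            · exact hl0 j hj
            · exact hl j hj
          · have := card_union_le S0 S
            omega
          · intro c hc
            rw [hG0 c (fun j hj => hc j (mem_union_left _ hj)),
              hG c (fun j hj => hc j (mem_union_right _ hj))]
    _ = _ := by simp [P, cnt]

lemma exists_window {g : ℕ} {Q : Type} [Fintype Q] (hg : 0 < g) (l : ℕ) (hl : ∃ j, lev j = l)
    (w : Row lev g X Q → ℝ) (hw : ∀ y, 0 ≤ w y) (hs : ∑ y, w y ≤ 1) :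
    ∃ j, lev j = l ∧ ∑ y ∈ univ.filter (fun y : Row lev g X Q => j ∈ y.1.1), w y ≤ 1 / g := by
  set L := univ.filter fun j => lev j = l with hL
  have hne : L.Nonempty := by
    obtain ⟨j, hj⟩ := hl
    exact ⟨j, mem_filter.2 ⟨mem_univ _, hj⟩⟩
  have hg' : (0 : ℝ) < g := by exact_mod_cast hg
  have : ∑ j ∈ L, ∑ y ∈ univ.filter (fun y : Row lev g X Q => j ∈ y.1.1), w y ≤
      ∑ _j ∈ L, (1 / g : ℝ) := by
    calc _ = ∑ y : Row lev g X Q, ((y.1.1.filter fun j => lev j = l).card : ℝ) * w y := by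
          simp_rw [sum_filter]
          rw [sum_comm]
          refine sum_congr rfl fun y _ => ?_
          rw [← sum_filter, sum_const, nsmul_eq_mul]
          congr 2
          congr 1
          ext j
          simp [hL, and_comm]
      _ ≤ ∑ y : Row lev g X Q, ((L.card : ℝ) / g) * w y := by
          refine sum_le_sum fun y _ => mul_le_mul_of_nonneg_right ?_ (hw y)
          rw [le_div_iff₀ hg', mul_comm]
          exact_mod_cast y.1.2 l
      _ ≤ (L.card : ℝ) / g * 1 := by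
          rw [← mul_sum]; gcongr
      _ = _ := by simp [div_eq_mul_inv]
  obtain ⟨j, hj, h⟩ := exists_le_of_sum_le hne this
  exact ⟨j, (mem_filter.1 hj).2, h⟩

lemma level_step {k g R ω : ℕ} {Q : Type} [Fintype Q]
    (h : Spec lev C k g R (fun t => ω * (g * 2 ^ t))) (hg : 0 < g) (l : ℕ) (hl : l < k)
    (w : Row lev g X Q → ℝ) (hw : ∀ y, 0 ≤ w y) (hs : ∑ y, w y ≤ 1) :
    ∃ V : Finset Q, ω * V.card ≤ Fintype.card X ∧ ∀ u : X → Q,
      ∑ y ∈ univ.filter (fun y : Row lev g X Q =>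
        Good lev C y.1.1 l (fun c => y.2 c = some (u c)) ∧
          ¬ Good lev C y.1.1 (l + 1) (fun c => y.2 c = some (u c) ∧ u c ∈ V)), w y ≤ 2 / g := by
  have hg' : (0 : ℝ) < g := by exact_mod_cast hg
  set κ : ℝ := 1 / (g * 2 ^ cnt lev l) with hκ
  have hκ0 : 0 < κ := by positivity
  obtain ⟨T, hT, hcap⟩ := exists_centres w hw hs (fun y => univ.filter (Cap lev C l y)) κ hκ0
  obtain ⟨j, hj, hwin⟩ := exists_window lev hg l (h.lev_ex l hl) w hw hs
  have hT' : T.card ≤ g * 2 ^ cnt lev l := by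
    rw [hκ, mul_one_div, div_le_one (by positivity)] at hT
    exact_mod_cast hT
  refine ⟨(T ×ˢ C j).biUnion fun z => (z.1.2 z.2).toFinset, ?_, ?_⟩
  · have h1 : ((T ×ˢ C j).biUnion fun z => (z.1.2 z.2).toFinset).card ≤ T.card * (C j).card := by
      calc _ ≤ ∑ z ∈ T ×ˢ C j, ((z.1.2 z.2).toFinset).card := card_biUnion_le
        _ ≤ ∑ _z ∈ T ×ˢ C j, 1 := sum_le_sum fun z _ => by
            cases z.1.2 z.2 <;> simp
        _ = _ := by simp
    have h2 := h.win j
    rw [hj] at h2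
    calc ω * _ ≤ ω * ((g * 2 ^ cnt lev l) * (C j).card) :=
          Nat.mul_le_mul_left _ (h1.trans (Nat.mul_le_mul_right _ hT'))
      _ = (C j).card * (ω * (g * 2 ^ cnt lev l)) := by ring
      _ ≤ _ := h2
  · intro u
    have h1 := unpopular_le lev C l w hw κ hκ0 u
    have h2 : (2 : ℝ) ^ cnt lev l * κ = 1 / g := by rw [hκ]; field_simp
    rw [h2] at h1
    have h3 : (2 : ℝ) / g = 1 / g + 1 / g := by ring
    rw [h3]
    refine le_trans ?_ (add_le_add h1 hwin)
    rw [← sum_union_inter]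
    refine le_trans (sum_le_sum_of_subset_of_nonneg ?_ (fun z _ _ => hw z))
      (le_add_of_nonneg_right (sum_nonneg fun z _ => hw z))
    intro y hy
    obtain ⟨-, hG, hnG⟩ := mem_filter.1 hy
    by_contra hcon
    simp only [mem_union, mem_filter, mem_univ, true_and, not_or, not_and, not_not] at hcon
    obtain ⟨s, hs, z, hz, hz'⟩ := hcap y (hcon.1 hG)
    obtain ⟨e1, S1, hd1, hl1, hc1, hp1⟩ := (mem_filter.1 hz).2
    obtain ⟨e2, S2, hd2, hl2, hc2, hp2⟩ := (mem_filter.1 hz').2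
    obtain ⟨S0, hd0, hl0, hc0, hp0⟩ := hG
    apply hnG
    refine ⟨insert j (S0 ∪ S1 ∪ S2), ?_, ?_, ?_, ?_⟩
    · rw [disjoint_insert_left]
      exact ⟨hcon.2, disjoint_union_left.2 ⟨disjoint_union_left.2 ⟨hd0, hd1⟩,
        disjoint_of_filter_eq lev (e1.trans e2.symm) hl2 hd2⟩⟩
    · intro i hi
      simp only [mem_insert, mem_union] at hi
      rcases hi with rfl | (hi | hi) | hi
      · omega
      · exact (hl0 i hi).trans (Nat.lt_succ_self _)
      · exact (hl1 i hi).trans (Nat.lt_succ_self _)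
      · exact (hl2 i hi).trans (Nat.lt_succ_self _)
    · have a1 := card_insert_le j (S0 ∪ S1 ∪ S2)
      have a2 := card_union_le (S0 ∪ S1) S2
      have a3 := card_union_le S0 S1
      have a4 : 1 ≤ 6 ^ l := Nat.one_le_pow _ _ (by norm_num)
      rw [pow_succ]; omega
    · intro c hc
      have b0 := hp0 c (fun i hi => hc i (by simp [hi]))
      have b1 := hp1 c (fun i hi => hc i (by simp [hi]))
      have b2 := hp2 c (fun i hi => hc i (by simp [hi]))
      refine ⟨b0, mem_biUnion.2 ⟨(s, c), mem_product.2 ⟨hs, hc j (mem_insert_self _ _)⟩, ?_⟩⟩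
      simp only [Option.mem_toFinset, Option.mem_def]
      rw [b2, ← b1, b0]

end Vale.Agent.P126
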