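import Vale.Agent.P126.Body

open Finset Pointwise Topology

namespace Vale.Agent.P126

open Classical

theorem exists_matrix_fin (t : ℝ) (ht : 0 < t) (b : ℝ) (hb : 0 < b) :
    ∃ (n : ℕ) (U : Type) (_ : Fintype U) (M : Fin n → U → ℝ) (c1 c2 : ℕ),
      1 ≤ n ∧ 0 < c1 ∧ 0 < c2 ∧ b * Real.log c2 < Real.log (Fintype.card U) - Real.log c1 ∧
      (∀ u0, (univ.filter fun u => ∀ y, |M y u - M y u0| < 1).card ≤ c1) ∧
      ∃ s : Finset (EuclideanSpace ℝ (Fin n)), s.card ≤ c2 ∧
        ∀ x ∈ cross n, ∃ z ∈ s, x - z ∈ slab M t 3 := by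
  obtain ⟨Y, U, _, _, _, M, c1, c2, h1, h2, h3, h4, Nt, h5, h6⟩ := exists_matrix t ht b hb
  let e := (Fintype.equivFin Y).symm
  refine ⟨Fintype.card Y, U, inferInstance, fun i u => M (e i) u, c1, c2, Fintype.card_pos,
    h1, h2, h3, fun u0 => le_trans (card_le_card fun u hu => mem_filter.2 ⟨mem_univ _, fun y => ?_⟩)
      (h4 u0), Nt.image fun f => WithLp.toLp 2 fun i => f (e i), card_image_le.trans h5, ?_⟩
  · simpa using (mem_filter.1 hu).2 (e.symm y)
  · intro x hx
    obtain ⟨f', hf', a1, a2⟩ := h6 (fun y => x (e.symm y)) (by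
      rw [← e.sum_comp]; simpa using mem_cross.1 hx)
    refine ⟨_, mem_image_of_mem _ hf', fun u => ?_, ?_⟩
    · have := a2 u
      rw [← e.sum_comp] at this
      simpa using this
    · rw [← e.sum_comp] at a1
      simpa using a1

lemma log_gap {b : ℝ} (hb : 0 < b) {c1 c2 N1 N2 u : ℕ} (h1 : 0 < c1) (_h2 : 0 < c2)
    (h : b * Real.log c2 < Real.log u - Real.log c1) (hN1 : u ≤ N1 * c1) (hN2 : N2 ≤ c2) :
    b * Real.log N2 < Real.log N1 := by
  have hc1 : (0 : ℝ) < c1 := by exact_mod_cast h1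
  have a0 : 0 ≤ Real.log c2 := Real.log_natCast_nonneg _
  have a1 : Real.log N2 ≤ Real.log c2 := by
    rcases Nat.eq_zero_or_pos N2 with rfl | h0
    · simpa using a0
    · exact Real.log_le_log (by exact_mod_cast h0) (by exact_mod_cast hN2)
  have hu : 0 < u := by
    rcases Nat.eq_zero_or_pos u with rfl | h0
    · exfalso
      have := Real.log_natCast_nonneg c1
      have := mul_nonneg hb.le a0
      simp at h
      linarith
    · exact h0
  have hN : 0 < N1 := by
    rcases Nat.eq_zero_or_pos N1 with rfl | h0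
    · omega
    · exact h0
  have a2 : Real.log u ≤ Real.log N1 + Real.log c1 := by
    rw [← Real.log_mul (by exact_mod_cast hN.ne') hc1.ne']
    exact Real.log_le_log (by exact_mod_cast hu) (by exact_mod_cast hN1)
  have := mul_le_mul_of_nonneg_left a1 hb.le
  linarith

lemma col_mem_polar {n : ℕ} {U : Type} (M : Fin n → U → ℝ) {t r : ℝ} (ht : 0 < t) (u : U) :
    (WithLp.toLp 2 fun i => M i u / t : EuclideanSpace ℝ (Fin n)) ∈ polar (slab M t r) := by
  intro x hx
  rw [inner_eq]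
  have : ∑ i, x i * (M i u / t) = (∑ i, x i * M i u) / t := by
    rw [sum_div]; exact sum_congr rfl fun i _ => by ring
  simp only
  rw [this, div_le_one ht]
  exact (le_abs_self _).trans (hx.1 u)

theorem right_fails (a b : ℝ) (ha : 1 ≤ a) (hb : 1 ≤ b) :
    ∃ n : ℕ, 1 ≤ n ∧ ∃ K L : Set (EuclideanSpace ℝ (Fin n)), IsSymmBody K ∧ IsSymmBody L ∧
      b * Real.log (coverNum (polar L) (a⁻¹ • polar K)) < Real.log (coverNum K L) := by
  have ha0 : 0 < a := by linarith
  obtain ⟨n, U, _, M, c1, c2, hn, h1, h2, h3, h4, s, h5, h6⟩ :=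
    exists_matrix_fin (1 / (3 * a)) (by positivity) b (by linarith)
  have hK := polar_body (slab_bounded M (1 / 3) (3 * a))
    (slab_nhds M (by norm_num) (by positivity)) (slab_neg _ _ _)
  have hL : IsSymmBody (polar (cross n)) := polar_body (slab_bounded _ _ _)
    (slab_nhds _ one_pos one_pos) (slab_neg _ _ _)
  refine ⟨n, hn, _, _, hK, hL, log_gap (by linarith) h1 h2 h3 ?_ ?_⟩
  · refine le_coverNum hK.compact (polar_nhds (slab_bounded _ _ _)) _
      (col_mem_polar M (by norm_num)) (fun u u0 => ∀ y, |M y u - M y u0| < 1) c1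
      (fun u0 => by convert h4 u0) ?_
    intro u u0 x hx x0 hx0 e i
    have e' := congrArg (fun z : EuclideanSpace ℝ (Fin n) => z i) e
    simp only [PiLp.sub_apply] at e'
    have b1 := abs_le.1 (mem_polar_cross.1 hx i)
    have b2 := abs_le.1 (mem_polar_cross.1 hx0 i)
    rw [abs_lt]; constructor <;> linarith [b1.1, b1.2, b2.1, b2.2]
  · refine (coverNum_le s fun x hx => ?_).trans h5
    obtain ⟨z, hz, hxz⟩ := h6 x (polar_polar_cross hx)
    refine ⟨z, hz, a • (x - z), fun y hy => ?_, by simp [smul_smul, ha0.ne']⟩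
    rw [real_inner_comm]
    refine hy _ ⟨fun u => ?_, ?_⟩
    · have e : ∑ i, (a • (x - z)) i * M i u = a * ∑ i, (x - z) i * M i u := by
        rw [mul_sum]; exact sum_congr rfl fun i _ => by simp only [PiLp.smul_apply, smul_eq_mul]; ring
      rw [e, abs_mul, abs_of_pos ha0]
      calc _ ≤ a * (1 / (3 * a)) := mul_le_mul_of_nonneg_left (hxz.1 u) ha0.le
        _ = 1 / 3 := by field_simp
    · have e : ∑ i, |(a • (x - z)) i| = a * ∑ i, |(x - z) i| := by
        rw [mul_sum]
        exact sum_congr rfl fun i _ => by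
          simp only [PiLp.smul_apply, smul_eq_mul]; rw [abs_mul, abs_of_pos ha0]
      rw [e]
      have := mul_le_mul_of_nonneg_left hxz.2 ha0.le
      linarith

theorem left_fails (a b : ℝ) (ha : 1 ≤ a) (hb : 1 ≤ b) :
    ∃ n : ℕ, 1 ≤ n ∧ ∃ K L : Set (EuclideanSpace ℝ (Fin n)), IsSymmBody K ∧ IsSymmBody L ∧
      Real.log (coverNum K L) < 1 / b * Real.log (coverNum (polar L) (a • polar K)) := by
  have ha0 : 0 < a := by linarith
  have hb0 : 0 < b := by linarith
  have ht : 0 < 1 / (3 * a) := by positivity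
  obtain ⟨n, U, _, M, c1, c2, hn, h1, h2, h3, h4, s, h5, h6⟩ :=
    exists_matrix_fin (1 / (3 * a)) ht b hb0
  have hP := polar_body (slab_bounded M (1 / (3 * a)) 3)
    (slab_nhds M ht (by norm_num)) (slab_neg _ _ _)
  refine ⟨n, hn, cross n, slab M (1 / (3 * a)) 3, slab_body _ one_pos one_pos,
    slab_body _ ht (by norm_num), ?_⟩
  rw [one_div_mul_eq_div, lt_div_iff₀ hb0, mul_comm]
  refine log_gap hb0 h1 h2 h3 ?_ ((coverNum_le s h6).trans h5)
  refine le_coverNum hP.compact ?_ _ (col_mem_polar M ht) (fun u u0 => ∀ y, |M y u - M y u0| < 1) c1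
    (fun u0 => by convert h4 u0) ?_
  · exact (set_smul_mem_nhds_zero_iff ha0.ne').2 (polar_nhds (slab_bounded _ _ _))
  · rintro u u0 _ ⟨x, hx, rfl⟩ _ ⟨x0, hx0, rfl⟩ e i
    have e' := congrArg (fun z : EuclideanSpace ℝ (Fin n) => z i) e
    simp only [PiLp.sub_apply, PiLp.smul_apply, smul_eq_mul] at e'
    have b1 := abs_le.1 (mem_polar_cross.1 hx i)
    have b2 := abs_le.1 (mem_polar_cross.1 hx0 i)
    have e2 : M i u - M i u0 = (x i - x0 i) / 3 := by
      field_simp at e' ⊢
      linarith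
    rw [e2, abs_lt]; constructor <;> linarith [b1.1, b1.2, b2.1, b2.2]

end Vale.Agent.P126
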