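import Vale.Agent.P126.Level

open Finset

namespace Vale.Agent.P126

open Classical

set_option linter.unusedSectionVars false

variable {X J : Type} [Fintype X] [Fintype J] (lev : J → ℕ) (C : J → Finset X)

noncomputable def levels {g : ℕ} {Q : Type} (k : ℕ) (y : Row lev g X Q) (u : X → Q) : Finset ℕ :=
  (range (k + 1)).filter fun l => Good lev C y.1.1 l (fun c => y.2 c = some (u c))

noncomputable def entry {g : ℕ} {Q : Type} (k : ℕ) (y : Row lev g X Q) (u : X → Q) : ℝ :=
  ((levels lev C k y u).card : ℝ) / (k + 1)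

lemma entry_nonneg {g : ℕ} {Q : Type} (k : ℕ) (y : Row lev g X Q) (u : X → Q) :
    0 ≤ entry lev C k y u := by unfold entry; positivity

lemma entry_le_one {g : ℕ} {Q : Type} (k : ℕ) (y : Row lev g X Q) (u : X → Q) :
    entry lev C k y u ≤ 1 := by
  unfold entry
  rw [div_le_one (by positivity)]
  have : (levels lev C k y u).card ≤ k + 1 := (card_filter_le _ _).trans (by simp)
  exact_mod_cast this

lemma separated {k g : ℕ} {B : ℕ → ℕ} {Q : Type} (h : Spec lev C k g (6 ^ k) B) (u u0 : X → Q)
    (hu : 2 ^ k * (univ.filter fun c => u0 c = u c).card < Fintype.card X) :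
    ∃ y : Row lev g X Q, entry lev C k y u0 = 1 ∧ entry lev C k y u = 0 := by
  obtain ⟨τ, hτ, hhit⟩ := h.hit _ hu
  refine ⟨(⟨τ, hτ⟩, fun c => some (u0 c)), ?_, ?_⟩
  · unfold entry levels
    rw [filter_true_of_mem (fun l _ => ⟨∅, by simp, by simp, by simp, fun _ _ => rfl⟩), card_range]
    push_cast
    field_simp
  · unfold entry levels
    rw [filter_false_of_mem]
    · simp
    · rintro l hl ⟨S, hd, -, hc, hG⟩
      have hl' : l ≤ k := by have := mem_range.1 hl; omega
      obtain ⟨c, hc1, hc2⟩ := hhit S hd (hc.trans (Nat.pow_le_pow_right (by norm_num) hl'))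
      apply hc2
      simpa using hG c hc1

lemma card_agree_le {Q : Type} [Fintype Q] [Nonempty Q] (u0 : X → Q) (s : ℕ) :
    (univ.filter fun u : X → Q => s ≤ (univ.filter fun c => u0 c = u c).card).card ≤
      2 ^ Fintype.card X * Fintype.card Q ^ (Fintype.card X - s) := by
  let P : Finset (Finset X) := univ.filter fun Z => s ≤ Z.card
  have hsub : (univ.filter fun u : X → Q => s ≤ (univ.filter fun c => u0 c = u c).card) ⊆
      P.biUnion fun Z => Fintype.piFinset fun c => if c ∈ Z then {u0 c} else univ := by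
    intro u hu
    refine mem_biUnion.2 ⟨univ.filter fun c => u0 c = u c, mem_filter.2 ⟨mem_univ _,
      (mem_filter.1 hu).2⟩, Fintype.mem_piFinset.2 fun c => ?_⟩
    split_ifs with hc
    · simpa using ((mem_filter.1 hc).2).symm
    · exact mem_univ _
  refine (card_le_card hsub).trans (card_biUnion_le.trans ?_)
  calc _ ≤ ∑ _Z ∈ P, Fintype.card Q ^ (Fintype.card X - s) := by
        refine sum_le_sum fun Z hZ => ?_
        rw [Fintype.card_piFinset]
        have : ∏ c, (if c ∈ Z then ({u0 c} : Finset Q) else univ).card =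
            ∏ c ∈ Zᶜ, Fintype.card Q := by
          rw [← prod_mul_prod_compl Z]
          rw [prod_congr rfl (g := fun _ => 1) (fun c hc => by simp [hc]), prod_const_one, one_mul]
          exact prod_congr rfl fun c hc => by simp [mem_compl.1 hc]
        rw [this, prod_const, card_compl]
        exact Nat.pow_le_pow_right Fintype.card_pos
          (Nat.sub_le_sub_left (mem_filter.1 hZ).2 _)
    _ ≤ _ := by
        rw [sum_const, smul_eq_mul]
        refine Nat.mul_le_mul_right _ ((card_filter_le _ _).trans ?_)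
        simp

/-- Forget the symbols outside `V`. -/
noncomputable def red {g : ℕ} {Q : Type} (V : Finset Q) (y : Row lev g X Q) : Row lev g X Q :=
  (y.1, fun c => (y.2 c).filter fun v => v ∈ V)

omit [Fintype X] in
lemma red_eq_some {g : ℕ} {Q : Type} (V : Finset Q) (y : Row lev g X Q) (c : X) (v : Q) :
    (red lev V y).2 c = some v ↔ y.2 c = some v ∧ v ∈ V := by
  simp [red, Option.filter_eq_some_iff]

omit [Fintype X] [Fintype J] in
lemma Good.mono {τ : Finset J} {l : ℕ} {G G' : X → Prop} (h : Good lev C τ l G)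
    (hG : ∀ c, G c → G' c) : Good lev C τ l G' := by
  obtain ⟨S, h1, h2, h3, h4⟩ := h
  exact ⟨S, h1, h2, h3, fun c hc => hG c (h4 c hc)⟩

lemma entry_sub_red {g : ℕ} {Q : Type} (k : ℕ) (V : Finset Q) (y : Row lev g X Q) (u : X → Q) :
    |entry lev C k y u - entry lev C k (red lev V y) u| ≤
      (1 + ∑ l ∈ range k, if (Good lev C y.1.1 l (fun c => y.2 c = some (u c)) ∧
          ¬ Good lev C y.1.1 (l + 1) (fun c => y.2 c = some (u c) ∧ u c ∈ V)) then (1 : ℝ) else 0)
        / (k + 1) := by
  set Bad := (range k).filter fun l => Good lev C y.1.1 l (fun c => y.2 c = some (u c)) ∧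
    ¬ Good lev C y.1.1 (l + 1) (fun c => y.2 c = some (u c) ∧ u c ∈ V) with hBad
  have h1 : (levels lev C k (red lev V y) u).card ≤ (levels lev C k y u).card := by
    refine card_le_card fun l hl => ?_
    obtain ⟨a, b⟩ := mem_filter.1 hl
    exact mem_filter.2 ⟨a, b.mono lev C fun c hc => ((red_eq_some lev V y c _).1 hc).1⟩
  have h2 : (levels lev C k y u).card ≤
      1 + Bad.card + (levels lev C k (red lev V y) u).card := by
    have hsub : levels lev C k y u ⊆
        insert k (Bad ∪ (levels lev C k (red lev V y) u).image fun l => l - 1) := by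
      intro l hl
      obtain ⟨a, b⟩ := mem_filter.1 hl
      by_cases hk : l = k
      · simp [hk]
      · have hlk : l < k := by have := mem_range.1 a; omega
        refine mem_insert_of_mem (mem_union.2 ?_)
        by_cases hb : Good lev C y.1.1 (l + 1) (fun c => y.2 c = some (u c) ∧ u c ∈ V)
        · right
          refine mem_image.2 ⟨l + 1, mem_filter.2 ⟨mem_range.2 (by omega), ?_⟩, by simp⟩
          exact hb.mono lev C fun c hc => (red_eq_some lev V y c _).2 hc
        · left
          exact mem_filter.2 ⟨mem_range.2 hlk, b, hb⟩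
    have a1 := card_le_card hsub
    have a2 := card_insert_le k (Bad ∪ (levels lev C k (red lev V y) u).image fun l => l - 1)
    have a3 := card_union_le Bad ((levels lev C k (red lev V y) u).image fun l => l - 1)
    have a4 := card_image_le (s := levels lev C k (red lev V y) u) (f := fun l => l - 1)
    omega
  rw [← sum_filter, sum_const, nsmul_eq_mul, mul_one, ← hBad]
  unfold entry
  rw [← sub_div, abs_div, abs_of_pos (a := (k : ℝ) + 1) (by positivity)]
  gcongr
  have h1' : ((levels lev C k (red lev V y) u).card : ℝ) ≤ (levels lev C k y u).card := by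
    exact_mod_cast h1
  have h2' : ((levels lev C k y u).card : ℝ) ≤
      1 + Bad.card + (levels lev C k (red lev V y) u).card := by exact_mod_cast h2
  rw [abs_of_nonneg (by linarith)]
  linarith

lemma compress {k g R ω : ℕ} {Q : Type} [Fintype Q]
    (h : Spec lev C k g R (fun t => ω * (g * 2 ^ t))) (hg : 0 < g)
    (w : Row lev g X Q → ℝ) (hw : ∀ y, 0 ≤ w y) (hs : ∑ y, w y ≤ 1) :
    ∃ V : Finset Q, ω * V.card ≤ k * Fintype.card X ∧ ∀ V' : Finset Q, V ⊆ V' → ∀ u : X → Q,
      ∑ y, w y * |entry lev C k y u - entry lev C k (red lev V' y) u| ≤ 1 / (k + 1) + 2 / g := by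
  have hg' : (0 : ℝ) < g := by exact_mod_cast hg
  have := fun l : Fin k => level_step lev C h hg l l.2 w hw hs
  choose V hV hV' using this
  refine ⟨univ.biUnion V, ?_, ?_⟩
  · calc ω * _ ≤ ω * ∑ l, (V l).card := Nat.mul_le_mul_left _ card_biUnion_le
      _ = ∑ l, ω * (V l).card := mul_sum _ _ _
      _ ≤ ∑ _l : Fin k, Fintype.card X := sum_le_sum fun l _ => hV l
      _ = _ := by simp
  · intro V' hsub u
    let bad : ℕ → Row lev g X Q → Prop := fun l y =>
      Good lev C y.1.1 l (fun c => y.2 c = some (u c)) ∧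
        ¬ Good lev C y.1.1 (l + 1) (fun c => y.2 c = some (u c) ∧ u c ∈ V')
    have hbad : ∀ l ∈ range k, ∑ y, w y * (if bad l y then (1 : ℝ) else 0) ≤ 2 / g := by
      intro l hl
      refine le_trans ?_ (hV' ⟨l, mem_range.1 hl⟩ u)
      simp_rw [mul_ite, mul_one, mul_zero]
      rw [← sum_filter]
      refine sum_le_sum_of_subset_of_nonneg ?_ (fun z _ _ => hw z)
      intro y hy
      obtain ⟨-, a, b⟩ := mem_filter.1 hy
      refine mem_filter.2 ⟨mem_univ _, a, fun hc => b (hc.mono lev C fun c hc =>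
        ⟨hc.1, hsub (mem_biUnion.2 ⟨_, mem_univ _, hc.2⟩)⟩)⟩
    calc _ ≤ ∑ y, w y * ((1 + ∑ l ∈ range k, if bad l y then (1 : ℝ) else 0) / (k + 1)) :=
          sum_le_sum fun y _ => mul_le_mul_of_nonneg_left (entry_sub_red lev C k V' y u) (hw y)
      _ = (∑ y, w y + ∑ l ∈ range k, ∑ y, w y * (if bad l y then (1 : ℝ) else 0)) / (k + 1) := by
          rw [sum_comm, ← sum_add_distrib, sum_div]
          refine sum_congr rfl fun y _ => ?_
          rw [← mul_sum]; ring
      _ ≤ (1 + ∑ _l ∈ range k, 2 / (g : ℝ)) / (k + 1) := by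
          gcongr with l hl
          exact hbad l hl
      _ ≤ _ := by
          rw [sum_const, card_range, nsmul_eq_mul, add_div]
          refine add_le_add le_rfl ?_
          rw [div_le_iff₀ (by positivity)]
          have : (0 : ℝ) ≤ 2 / g := by positivity
          nlinarith

/-- Rounding to a grid inside a fixed support. -/
lemma grid_net {Y : Type} [Fintype Y] (A : Finset Y) (m g : ℕ) (hA : A.card ≤ m) (hg : 0 < g) :
    ∃ Nt : Finset (Y → ℝ), Nt.card ≤ (2 * ((m + 1) * g) + 1) ^ m ∧
      ∀ h : Y → ℝ, (∀ y, y ∉ A → h y = 0) → ∑ y, |h y| ≤ 1 →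
        ∃ h' ∈ Nt, ∑ y, |h y - h' y| ≤ 1 / g := by
  set D : ℕ := (m + 1) * g with hD
  have hg' : (0 : ℝ) < g := by exact_mod_cast hg
  have hD0 : (0 : ℝ) < D := by rw [hD]; push_cast; positivity
  let P : Finset (Y → ℤ) := Fintype.piFinset fun y => if y ∈ A then Icc (-(D : ℤ)) D else {0}
  refine ⟨P.image fun z y => (z y : ℝ) / D, card_image_le.trans ?_, ?_⟩
  · rw [Fintype.card_piFinset, ← prod_mul_prod_compl A,
      prod_congr rfl (s₂ := Aᶜ) (g := fun _ => 1) (fun c hc => by simp [mem_compl.1 hc]),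
      prod_const_one, mul_one,
      prod_congr rfl (g := fun _ => 2 * D + 1) (fun c hc => by
        simp only [hc, if_true, Int.card_Icc]; omega), prod_const]
    exact Nat.pow_le_pow_right (by omega) hA
  · intro h h0 h1
    refine ⟨fun y => ((⌊h y * D⌋ : ℤ) : ℝ) / D, mem_image.2 ⟨fun y => ⌊h y * D⌋, ?_, rfl⟩, ?_⟩
    · refine Fintype.mem_piFinset.2 fun y => ?_
      split_ifs with hy
      · have hy1 : |h y| ≤ 1 :=
          (single_le_sum (f := fun y => |h y|) (fun _ _ => abs_nonneg _) (mem_univ y)).trans h1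
        rw [abs_le] at hy1
        rw [mem_Icc, Int.le_floor, Int.floor_le_iff]
        push_cast
        constructor <;> nlinarith [hy1.1, hy1.2]
      · simp [h0 y hy]
    · have hb : ∀ y, |h y - ((⌊h y * D⌋ : ℤ) : ℝ) / D| ≤ if y ∈ A then 1 / (D : ℝ) else 0 := by
        intro y
        split_ifs with hy
        · have e : h y - ((⌊h y * D⌋ : ℤ) : ℝ) / D = (h y * D - ⌊h y * D⌋) / D := by field_simp
          rw [e, abs_div, abs_of_pos hD0]
          gcongr
          have a1 := Int.floor_le (h y * D)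
          have a2 := Int.lt_floor_add_one (h y * D)
          rw [abs_le]; constructor <;> linarith
        · simp [h0 y hy]
      refine (sum_le_sum fun y _ => hb y).trans ?_
      rw [← sum_filter, filter_mem_eq_inter, univ_inter, sum_const, nsmul_eq_mul, mul_one_div,
        div_le_div_iff₀ hD0 hg', hD]
      have : (A.card : ℝ) ≤ m := by exact_mod_cast hA
      push_cast
      nlinarith

lemma card_image_red {g : ℕ} {Q : Type} [Fintype Q] (V : Finset Q) :
    ((univ : Finset (Row lev g X Q)).image (red lev V)).card ≤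
      2 ^ Fintype.card J * (V.card + 1) ^ Fintype.card X := by
  have hsub : (univ : Finset (Row lev g X Q)).image (red lev V) ⊆
      univ ×ˢ Fintype.piFinset fun _ : X => insertNone V := by
    intro y hy
    obtain ⟨z, -, rfl⟩ := mem_image.1 hy
    refine mem_product.2 ⟨mem_univ _, Fintype.mem_piFinset.2 fun c => mem_insertNone.2 ?_⟩
    intro v hv
    exact ((red_eq_some lev V z c v).1 hv).2
  refine (card_le_card hsub).trans ?_
  rw [card_product, Fintype.card_piFinset, prod_const, card_insertNone, card_univ, card_univ]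
  refine Nat.mul_le_mul_right _ ((Fintype.card_subtype_le _).trans ?_)
  simp

lemma exists_net {k g R ω : ℕ} {Q : Type} [Fintype Q] [Nonempty Q]
    (h : Spec lev C k g R (fun t => ω * (g * 2 ^ t))) (hg : 0 < g) (η : ℕ)
    (hη : ∀ v : ℕ, ω * v ≤ k * Fintype.card X → v ≤ η) :
    ∃ Nt : Finset (Row lev g X Q → ℝ),
      Nt.card ≤ Fintype.card Q ^ η *
        (2 * ((2 ^ Fintype.card J * (η + 1) ^ Fintype.card X + 1) * g) + 1) ^
          (2 ^ Fintype.card J * (η + 1) ^ Fintype.card X) ∧
      ∀ f : Row lev g X Q → ℝ, ∑ y, |f y| ≤ 1 → ∃ f' ∈ Nt, ∑ y, |f y - f' y| ≤ 3 ∧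
        ∀ u, |∑ y, (f y - f' y) * entry lev C k y u| ≤ 1 / (k + 1) + 3 / g := by
  have hg' : (0 : ℝ) < g := by exact_mod_cast hg
  have hg1 : (1 : ℝ) ≤ g := by exact_mod_cast hg
  set m := 2 ^ Fintype.card J * (η + 1) ^ Fintype.card X with hm
  have hv : ∀ v : Fin η → Q,
      ((univ : Finset (Row lev g X Q)).image (red lev (univ.image v))).card ≤ m := by
    intro v
    refine (card_image_red lev _).trans (Nat.mul_le_mul_left _ (Nat.pow_le_pow_left ?_ _))
    have : (univ.image v).card ≤ η := card_image_le.trans (by simp)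
    omega
  choose Nt hNt hNt' using fun v : Fin η → Q => grid_net _ m g (hv v) hg
  refine ⟨univ.biUnion Nt, ?_, ?_⟩
  · refine card_biUnion_le.trans ((sum_le_sum fun v _ => hNt v).trans ?_)
    simp
  · intro f hf
    obtain ⟨V, hV, hV'⟩ := compress lev C h hg (fun y => |f y|) (fun _ => abs_nonneg _) hf
    have hVη := hη _ hV
    let v : Fin η → Q := fun i =>
      if hi : (i : ℕ) < V.card then (V.equivFin.symm ⟨i, hi⟩ : V) else Classical.arbitrary Q
    have hsub : V ⊆ univ.image v := by
      intro x hx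
      refine mem_image.2 ⟨⟨V.equivFin ⟨x, hx⟩, lt_of_lt_of_le (V.equivFin ⟨x, hx⟩).2 hVη⟩,
        mem_univ _, ?_⟩
      simp [v]
    set r : Row lev g X Q → Row lev g X Q := red lev (univ.image v) with hr
    let f1 : Row lev g X Q → ℝ := fun z => ∑ y ∈ univ.filter (fun y => r y = z), f y
    have hf1 : ∑ z, |f1 z| ≤ 1 := by
      calc ∑ z, |f1 z| ≤ ∑ z, ∑ y ∈ univ.filter (fun y => r y = z), |f y| :=
            sum_le_sum fun z _ => abs_sum_le_sum_abs _ _
        _ = ∑ y, |f y| := sum_fiberwise _ _ _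
        _ ≤ 1 := hf
    obtain ⟨f', hf', hd⟩ := hNt' v f1 (fun z hz => by
      refine sum_eq_zero fun y hy => absurd ?_ hz
      exact mem_image.2 ⟨y, mem_univ _, (mem_filter.1 hy).2⟩) hf1
    refine ⟨f', mem_biUnion.2 ⟨v, mem_univ _, hf'⟩, ?_, fun u => ?_⟩
    · have h1g : (1 : ℝ) / g ≤ 1 := by rw [div_le_one hg']; exact hg1
      calc ∑ y, |f y - f' y| ≤ ∑ y, (|f y| + |f1 y| + |f1 y - f' y|) := by
            refine sum_le_sum fun y _ => ?_
            have e : f y - f' y = (f y - f1 y) + (f1 y - f' y) := by ring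
            rw [e]
            exact (abs_add_le _ _).trans (add_le_add (abs_sub _ _) le_rfl)
        _ ≤ 3 := by rw [sum_add_distrib, sum_add_distrib]; linarith
    · have e1 : ∑ z, f1 z * entry lev C k z u = ∑ y, f y * entry lev C k (r y) u := by
        rw [← sum_fiberwise univ r (fun y => f y * entry lev C k (r y) u)]
        refine sum_congr rfl fun z _ => ?_
        rw [sum_mul]
        exact sum_congr rfl fun y hy => by rw [(mem_filter.1 hy).2]
      have e2 : ∑ y, (f y - f' y) * entry lev C k y u =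
          ∑ y, f y * (entry lev C k y u - entry lev C k (r y) u) +
            ∑ y, (f1 y - f' y) * entry lev C k y u := by
        simp_rw [sub_mul, mul_sub, sum_sub_distrib, e1]; ring
      have a1 : |∑ y, f y * (entry lev C k y u - entry lev C k (r y) u)| ≤ 1 / (k + 1) + 2 / g := by
        refine (abs_sum_le_sum_abs _ _).trans ?_
        simp_rw [abs_mul]
        exact hV' _ hsub u
      have a2 : |∑ y, (f1 y - f' y) * entry lev C k y u| ≤ 1 / g := by
        refine (abs_sum_le_sum_abs _ _).trans (le_trans (sum_le_sum fun y _ => ?_) hd)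
        rw [abs_mul, abs_of_nonneg (entry_nonneg lev C k y u)]
        exact mul_le_of_le_one_right (abs_nonneg _) (entry_le_one lev C k y u)
      rw [e2]
      refine (abs_add_le _ _).trans ?_
      have : (3 : ℝ) / g = 2 / g + 1 / g := by ring
      linarith

/-- The matrix with very different entropies on the two sides. -/
theorem exists_matrix (t : ℝ) (ht : 0 < t) (b : ℝ) (hb : 0 < b) :
    ∃ (Y U : Type) (_ : Fintype Y) (_ : Fintype U) (_ : Nonempty Y) (M : Y → U → ℝ) (c1 c2 : ℕ),
      0 < c1 ∧ 0 < c2 ∧ b * Real.log c2 < Real.log (Fintype.card U) - Real.log c1 ∧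
      (∀ u0, (univ.filter fun u => ∀ y, |M y u - M y u0| < 1).card ≤ c1) ∧
      ∃ Nt : Finset (Y → ℝ), Nt.card ≤ c2 ∧
        ∀ f : Y → ℝ, ∑ y, |f y| ≤ 1 → ∃ f' ∈ Nt, ∑ y, |f y - f' y| ≤ 3 ∧
          ∀ u, |∑ y, (f y - f' y) * M y u| ≤ t := by
  obtain ⟨k, hk⟩ := exists_nat_gt (2 / t)
  obtain ⟨g, hg⟩ := exists_nat_gt (6 / t)
  obtain ⟨ω, hω⟩ := exists_nat_gt (b * k * 2 ^ k)
  have hg' : (0 : ℝ) < g := lt_trans (by positivity) hg
  have hg0 : 0 < g := by exact_mod_cast hg'
  have hω' : (0 : ℝ) < ω := lt_of_le_of_lt (by positivity) hω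
  have hω0 : 0 < ω := by exact_mod_cast hω'
  obtain ⟨X, J, _, _, _, lev, C, hS⟩ := exists_sys k g (6 ^ k) (fun t => ω * (g * 2 ^ t))
  set n := Fintype.card X with hn
  have hn0 : (0 : ℝ) < n := by exact_mod_cast (Fintype.card_pos : 0 < Fintype.card X)
  set η := k * n / ω with hη
  set s := ⌈(n : ℝ) / 2 ^ k⌉₊ with hs
  have hsn : s ≤ n := by
    rw [hs, Nat.ceil_le, div_le_iff₀ (by positivity)]
    exact le_mul_of_one_le_right hn0.le (one_le_pow₀ (by norm_num))
  have hδ : 0 < (s : ℝ) - b * η := by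
    have a1 : (n : ℝ) / 2 ^ k ≤ s := Nat.le_ceil _
    have a2 : (η : ℝ) ≤ k * n / ω := by
      have := Nat.cast_div_le (α := ℝ) (m := k * n) (n := ω)
      simpa using this
    have a3 : b * (k * n / ω) < n / 2 ^ k := by
      rw [← mul_div_assoc, div_lt_div_iff₀ hω' (by positivity)]
      nlinarith
    nlinarith
  set C0 := (2 * ((2 ^ Fintype.card J * (η + 1) ^ n + 1) * g) + 1) ^
          (2 ^ Fintype.card J * (η + 1) ^ n) with hC0
  have hC0' : 0 < C0 := by positivity
  obtain ⟨q, hq⟩ := exists_nat_gt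
    (Real.exp ((n * Real.log 2 + b * Real.log C0) / ((s : ℝ) - b * η)))
  have hq' : (0 : ℝ) < q := lt_trans (Real.exp_pos _) hq
  have hq0 : 0 < q := by exact_mod_cast hq'
  have hlog : n * Real.log 2 + b * Real.log C0 < Real.log q * ((s : ℝ) - b * η) := by
    rw [← div_lt_iff₀ hδ, Real.lt_log_iff_exp_lt hq']
    exact hq
  have : Nonempty (Fin q) := ⟨⟨0, hq0⟩⟩
  obtain ⟨Nt, hNt, hNt'⟩ := exists_net lev C (Q := Fin q) hS hg0 η (fun v hv => by
    rw [hη, Nat.le_div_iff_mul_le hω0, mul_comm]; exact hv)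
  refine ⟨Row lev g X (Fin q), X → Fin q, inferInstance, inferInstance,
    ⟨(⟨∅, fun i => by simp⟩, fun _ => none)⟩, entry lev C k, 2 ^ n * q ^ (n - s), q ^ η * C0,
    by positivity, by positivity, ?_, ?_, Nt, by simpa using hNt, ?_⟩
  · simp only [Fintype.card_fun, Fintype.card_fin]
    push_cast
    rw [Real.log_mul (by positivity) (by positivity), Real.log_mul (by positivity) (by positivity),
      Real.log_pow, Real.log_pow, Real.log_pow, Real.log_pow, Nat.cast_sub hsn, ← hn]
    nlinarith
  · intro u0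
    have hag := card_agree_le (Q := Fin q) u0 s
    rw [Fintype.card_fin] at hag
    refine le_trans (le_of_eq_of_le (by congr) (card_le_card ?_)) hag
    intro u hu
    refine mem_filter.2 ⟨mem_univ _, ?_⟩
    by_contra hcon
    rw [hs, Nat.ceil_le, not_le, lt_div_iff₀ (by positivity)] at hcon
    obtain ⟨y, h1, h0⟩ := separated lev C hS u u0 (by
      rw [mul_comm]
      exact_mod_cast hcon)
    have := (mem_filter.1 hu).2 y
    rw [h1, h0] at this
    norm_num at this
  · intro f hf
    obtain ⟨f', h1, h2, h3⟩ := hNt' f hf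
    refine ⟨f', h1, h2, fun u => (h3 u).trans ?_⟩
    have a1 : 1 / ((k : ℝ) + 1) ≤ t / 2 := by
      rw [div_lt_iff₀ ht] at hk
      rw [div_le_div_iff₀ (by positivity) (by norm_num)]
      nlinarith
    have a2 : 3 / (g : ℝ) ≤ t / 2 := by
      rw [div_lt_iff₀ ht] at hg
      rw [div_le_div_iff₀ hg' (by norm_num)]
      nlinarith
    linarith

end Vale.Agent.P126
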