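import Mathlib

open Finset

namespace Vale.Agent.P126

open Classical

/-- zeroing the coordinates in `S` loses at most a factor `(b+1)^|S|`. -/
lemma card_le_zero_part {N b : ℕ} (A : Finset (Fin N → Fin (b + 1))) (S : Finset (Fin N))
    (hA : ∀ w ∈ A, ∀ w' : Fin N → Fin (b + 1), (∀ j, j ∉ S → w' j = w j) → w' ∈ A) :
    A.card ≤ (b + 1) ^ S.card * (A.filter fun w => ∀ j ∈ S, w j = 0).card := by
  let f : (Fin N → Fin (b + 1)) → (Fin N → Fin (b + 1)) := fun w j => if j ∈ S then 0 else w j
  apply Finset.card_le_mul_card_image_of_maps_to (f := f)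
  · intro w hw
    rw [Finset.mem_filter]
    refine ⟨hA w hw _ (fun j hj => by simp [f, hj]), fun j hj => by simp [f, hj]⟩
  · intro z _
    have h1 : (A.filter fun w => f w = z).card ≤ (Finset.univ : Finset (S → Fin (b + 1))).card := by
      apply Finset.card_le_card_of_injOn (fun w (j : S) => w j)
      · intro w _; simp
      · intro w hw w' hw' h
        simp only [coe_filter, Set.mem_ofPred_eq] at hw hw'
        funext j
        by_cases hj : j ∈ S
        · exact congrFun h ⟨j, hj⟩
        · have e1 := congrFun hw.2 j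
          have e2 := congrFun hw'.2 j
          simp only [f, hj, if_false] at e1 e2
          rw [e1, e2]
    simpa using h1

/-- One level: a set of density below one half contains no small subcube avoiding a bounded
set of coordinates. -/
lemma one_level {N b : ℕ} (R : ℕ) (Z : Finset (Fin N → Fin (b + 1)))
    (hZ : 2 * Z.card < Fintype.card (Fin N → Fin (b + 1))) :
    ∃ Lose : Finset (Fin N), Lose.card ≤ R * (b + 1) ^ R ∧
      ∀ S : Finset (Fin N), Disjoint S Lose → S.card ≤ R →
        ∃ w : Fin N → Fin (b + 1), (∀ j ∈ S, w j = 0) ∧ w ∉ Z := by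
  set D := (b + 1) ^ R with hD
  set n := Fintype.card (Fin N → Fin (b + 1)) with hn
  have hY : Zᶜ.card + Z.card = n := by rw [Finset.card_compl_add_card]
  have key : ∀ m : ℕ, (∃ Lose : Finset (Fin N), Lose.card ≤ R * m ∧
      ∀ S : Finset (Fin N), Disjoint S Lose → S.card ≤ R →
        ∃ w : Fin N → Fin (b + 1), (∀ j ∈ S, w j = 0) ∧ w ∉ Z) ∨
      (∃ T : Finset (Fin N), ∃ A : Finset (Fin N → Fin (b + 1)), T.card ≤ R * m ∧ Zᶜ ⊆ A ∧
        (∀ w ∈ A, ∀ w' : Fin N → Fin (b + 1), (∀ j ∈ T, w' j = w j) → w' ∈ A) ∧
        D * A.card + m * Zᶜ.card ≤ D * n) := by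
    intro m
    induction m with
    | zero =>
      right
      exact ⟨∅, univ, by simp, by simp, by simp, by simp [hn]⟩
    | succ m ih =>
      rcases ih with ⟨L, hL, h⟩ | ⟨T, A, hT, hZA, hinv, hc⟩
      · left
        exact ⟨L, hL.trans (Nat.mul_le_mul_left _ (Nat.le_succ m)), h⟩
      · by_cases hh : ∀ S : Finset (Fin N), Disjoint S T → S.card ≤ R →
            ∃ w : Fin N → Fin (b + 1), (∀ j ∈ S, w j = 0) ∧ w ∉ Z
        · left
          exact ⟨T, hT.trans (Nat.mul_le_mul_left _ (Nat.le_succ m)), hh⟩
        · right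
          push Not at hh
          obtain ⟨S, hST, hS, hSZ⟩ := hh
          refine ⟨T ∪ S, A.filter fun w => ¬ ∀ j ∈ S, w j = 0, ?_, ?_, ?_, ?_⟩
          · calc (T ∪ S).card ≤ T.card + S.card := card_union_le _ _
              _ ≤ R * m + R := by omega
              _ = R * (m + 1) := by ring
          · intro w hw
            rw [mem_filter]
            refine ⟨hZA hw, fun h0 => ?_⟩
            exact (mem_compl.1 hw) (hSZ w h0)
          · intro w hw w' hw'
            rw [mem_filter] at hw ⊢
            refine ⟨hinv w hw.1 w' (fun j hj => hw' j (mem_union_left _ hj)), fun h0 => hw.2 ?_⟩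
            intro j hj
            rw [← hw' j (mem_union_right _ hj)]
            exact h0 j hj
          · have h1 := card_le_zero_part A S (fun w hw w' hw' =>
              hinv w hw w' (fun j hj => hw' j (fun hjS => Finset.disjoint_left.1 hST hjS hj)))
            have h2 : (b + 1) ^ S.card ≤ D := Nat.pow_le_pow_right (Nat.succ_pos b) hS
            have h3 := Finset.card_filter_add_card_filter_not (s := A)
              (fun w => ∀ j ∈ S, w j = 0)
            have h4 : Zᶜ.card ≤ A.card := card_le_card hZA
            have h5 : A.card ≤ D * (A.filter fun w => ∀ j ∈ S, w j = 0).card :=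
              h1.trans (Nat.mul_le_mul_right _ h2)
            have h6 : D * A.card = D * (A.filter fun w => ∀ j ∈ S, w j = 0).card +
                D * (A.filter fun w => ¬ ∀ j ∈ S, w j = 0).card := by rw [← h3]; ring
            nlinarith
  rcases key D with h | ⟨T, A, _, hZA, _, hc⟩
  · exact h
  · exfalso
    have h4 : Zᶜ.card ≤ A.card := card_le_card hZA
    have hD0 : 0 < D := by positivity
    have h5 : D * Zᶜ.card ≤ D * A.card := Nat.mul_le_mul_left _ h4
    have h6 : D * (2 * Zᶜ.card) ≤ D * n := by nlinarith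
    have h7 : 2 * Zᶜ.card ≤ n := Nat.le_of_mul_le_mul_left h6 hD0
    omega

lemma card_zero_coord {N b : ℕ} (j : Fin N) :
    (univ.filter fun w : Fin N → Fin (b + 1) => w j = 0).card * (b + 1) ≤
      Fintype.card (Fin N → Fin (b + 1)) := by
  have h : ((univ.filter fun w : Fin N → Fin (b + 1) => w j = 0) ×ˢ
      (univ : Finset (Fin (b + 1)))).card ≤ (univ : Finset (Fin N → Fin (b + 1))).card := by
    apply Finset.card_le_card_of_injOn (fun z => Function.update z.1 j z.2)
    · intro z _; simp
    · intro z hz z' hz' h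
      simp only [coe_product, coe_filter, mem_univ, true_and, coe_univ, Set.mem_prod,
        Set.mem_ofPred_eq, Set.mem_univ, and_true] at hz hz'
      have e2 : z.2 = z'.2 := by simpa using congrFun h j
      refine Prod.ext ?_ e2
      funext i
      by_cases hi : i = j
      · subst hi; rw [hz, hz']
      · simpa [Function.update_of_ne hi] using congrFun h i
  simpa using h

def cnt {J : Type} [Fintype J] (lev : J → ℕ) (i : ℕ) : ℕ := (univ.filter fun j => lev j < i).card

def Valid {J : Type} [Fintype J] (lev : J → ℕ) (g : ℕ) (τ : Finset J) : Prop :=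
  ∀ i, g * (τ.filter fun j => lev j = i).card ≤ (univ.filter fun j => lev j = i).card

/-- A finite system of windows arranged in levels. -/
structure Spec {X J : Type} [Fintype X] [Fintype J] (lev : J → ℕ) (C : J → Finset X)
    (k g R : ℕ) (B : ℕ → ℕ) : Prop where
  lev_lt : ∀ j, lev j < k
  lev_ex : ∀ i < k, ∃ j, lev j = i
  win : ∀ j, (C j).card * B (cnt lev (lev j)) ≤ Fintype.card X
  hit : ∀ Z : Finset X, 2 ^ k * Z.card < Fintype.card X → ∃ τ, Valid lev g τ ∧
    ∀ T : Finset J, Disjoint T τ → T.card ≤ R → ∃ c, (∀ j ∈ T, c ∈ C j) ∧ c ∉ Z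

lemma card_filter_sum {α β : Type} (s : Finset (α ⊕ β)) (P : α ⊕ β → Prop) [DecidablePred P] :
    (s.filter P).card = (s.toLeft.filter fun a => P (Sum.inl a)).card +
      (s.toRight.filter fun a => P (Sum.inr a)).card := by
  rw [← Finset.card_toLeft_add_card_toRight]
  congr 1
  · congr 1; ext a; simp
  · congr 1; ext a; simp

lemma step_spec {X J : Type} [Fintype X] [Fintype J] {lev : J → ℕ} {C : J → Finset X}
    {k g R : ℕ} {B : ℕ → ℕ} (h : Spec lev C k g R B) (b N : ℕ) (hb : b = B (Fintype.card J))
    (hN : N = g * (Fintype.card X * (R * (b + 1) ^ R)) + 1) :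
    Spec (X := X × (Fin N → Fin (b + 1))) (J := J ⊕ Fin N) (Sum.elim lev (fun _ => k))
      (Sum.elim (fun j => C j ×ˢ univ)
        (fun j => univ ×ˢ (univ.filter fun w : Fin N → Fin (b + 1) => w j = 0)))
      (k + 1) g R B := by
  set W := Fintype.card (Fin N → Fin (b + 1)) with hW
  have hW0 : 0 < W := Fintype.card_pos
  have hX : Fintype.card (X × (Fin N → Fin (b + 1))) = Fintype.card X * W := Fintype.card_prod _ _
  refine ⟨?_, ?_, ?_, ?_⟩
  · rintro (j | j)
    · exact (h.lev_lt j).trans (Nat.lt_succ_self k)
    · exact Nat.lt_succ_self k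
  · intro i hi
    rcases Nat.lt_succ_iff_lt_or_eq.1 hi with hi | rfl
    · obtain ⟨j, hj⟩ := h.lev_ex i hi
      exact ⟨Sum.inl j, hj⟩
    · exact ⟨Sum.inr ⟨0, by omega⟩, rfl⟩
  · rintro (j | j)
    · have e1 : cnt (Sum.elim lev (fun _ : Fin N => k)) (lev j) = cnt lev (lev j) := by
        have hj := h.lev_lt j
        have := card_filter_sum (univ : Finset (J ⊕ Fin N))
          (fun x => Sum.elim lev (fun _ => k) x < lev j)
        simp only [Finset.toLeft_univ, Finset.toRight_univ, Sum.elim_inl, Sum.elim_inr] at this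
        rw [Finset.filter_false_of_mem (s := (univ : Finset (Fin N))) (fun _ _ => by omega)] at this
        simpa [cnt] using this
      simp only [Sum.elim_inl, card_product, card_univ]
      rw [e1, hX]
      calc (C j).card * W * B (cnt lev (lev j)) = (C j).card * B (cnt lev (lev j)) * W := by ring
        _ ≤ _ := Nat.mul_le_mul_right _ (h.win j)
    · have e1 : cnt (Sum.elim lev (fun _ : Fin N => k)) k = Fintype.card J := by
        have := card_filter_sum (univ : Finset (J ⊕ Fin N))
          (fun x => Sum.elim lev (fun _ => k) x < k)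
        simp only [Finset.toLeft_univ, Finset.toRight_univ, Sum.elim_inl, Sum.elim_inr] at this
        rw [Finset.filter_false_of_mem (s := (univ : Finset (Fin N))) (fun _ _ => by omega),
          Finset.filter_true_of_mem (fun j _ => h.lev_lt j)] at this
        simpa [cnt] using this
      simp only [Sum.elim_inr, card_product, card_univ]
      rw [e1, hX, ← hb]
      have := card_zero_coord (b := b) j
      calc Fintype.card X * (univ.filter fun w : Fin N → Fin (b + 1) => w j = 0).card * b
          ≤ Fintype.card X *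
            ((univ.filter fun w : Fin N → Fin (b + 1) => w j = 0).card * (b + 1)) := by
            rw [mul_assoc]; gcongr; omega
        _ ≤ _ := Nat.mul_le_mul_left _ this
  · intro Z hZ
    rw [hX] at hZ
    let fib : X → Finset (Fin N → Fin (b + 1)) := fun x => univ.filter fun w => (x, w) ∈ Z
    let Z0 : Finset X := univ.filter fun x => W ≤ 2 * (fib x).card
    have hsum : ∑ x, (fib x).card = Z.card := by
      have : Z.card = ∑ x : X, (Z.filter fun z : X × (Fin N → Fin (b + 1)) => z.1 = x).card :=
        Finset.card_eq_sum_card_fiberwise (f := fun z : X × (Fin N → Fin (b + 1)) => z.1)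
          (fun _ _ => mem_univ _)
      rw [this]
      refine Finset.sum_congr rfl fun x _ => ?_
      apply Finset.card_bij (fun w _ => (x, w))
      · intro w hw; simpa [fib] using hw
      · intro w _ w' _ e; exact (Prod.mk.inj e).2
      · rintro ⟨x', w⟩ hz
        rw [mem_filter] at hz
        obtain ⟨hz, rfl⟩ := hz
        exact ⟨w, by simpa [fib] using hz, rfl⟩
    have hZ0 : Z0.card * W ≤ 2 * Z.card := by
      calc Z0.card * W = ∑ _x ∈ Z0, W := by simp
        _ ≤ ∑ x ∈ Z0, 2 * (fib x).card := sum_le_sum fun x hx => (mem_filter.1 hx).2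
        _ ≤ ∑ x, 2 * (fib x).card := sum_le_sum_of_subset (subset_univ _)
        _ = 2 * Z.card := by rw [← mul_sum, hsum]
    have hZ0' : 2 ^ k * Z0.card < Fintype.card X := by
      apply Nat.lt_of_mul_lt_mul_right (a := W)
      calc 2 ^ k * Z0.card * W = 2 ^ k * (Z0.card * W) := by ring
        _ ≤ 2 ^ k * (2 * Z.card) := Nat.mul_le_mul_left _ hZ0
        _ = 2 ^ (k + 1) * Z.card := by ring
        _ < _ := hZ
    obtain ⟨τ0, hτ0, hhit0⟩ := h.hit Z0 hZ0'
    have hx : ∀ x : X, ∃ L : Finset (Fin N), L.card ≤ R * (b + 1) ^ R ∧ (x ∉ Z0 →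
        ∀ T : Finset (Fin N), Disjoint T L → T.card ≤ R →
          ∃ w : Fin N → Fin (b + 1), (∀ j ∈ T, w j = 0) ∧ w ∉ fib x) := by
      intro x
      by_cases hx : x ∈ Z0
      · exact ⟨∅, by simp, fun h => absurd hx h⟩
      · have : 2 * (fib x).card < W := by
          simp only [Z0, mem_filter, mem_univ, true_and, not_le] at hx; exact hx
        obtain ⟨L, hL, hL'⟩ := one_level R (fib x) this
        exact ⟨L, hL, fun _ => hL'⟩
    choose L hL hL' using hx
    let τ1 : Finset (Fin N) := univ.biUnion L
    have hτ1 : τ1.card ≤ Fintype.card X * (R * (b + 1) ^ R) := by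
      calc τ1.card ≤ ∑ x, (L x).card := card_biUnion_le
        _ ≤ ∑ _x : X, R * (b + 1) ^ R := sum_le_sum fun x _ => hL x
        _ = _ := by simp
    refine ⟨τ0.disjSum τ1, ?_, ?_⟩
    · intro i
      have e1 := card_filter_sum (τ0.disjSum τ1) (fun x => Sum.elim lev (fun _ => k) x = i)
      have e2 := card_filter_sum (univ : Finset (J ⊕ Fin N))
        (fun x => Sum.elim lev (fun _ => k) x = i)
      simp only [Finset.toLeft_univ, Finset.toRight_univ, Sum.elim_inl, Sum.elim_inr,
        Finset.toLeft_disjSum, Finset.toRight_disjSum] at e1 e2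
      have e3 : g * (τ1.filter fun _ => k = i).card ≤
          ((univ : Finset (Fin N)).filter fun _ => k = i).card := by
        by_cases hk : k = i
        · rw [Finset.filter_true_of_mem (fun _ _ => hk), Finset.filter_true_of_mem (fun _ _ => hk)]
          simp only [card_univ, Fintype.card_fin]
          have := Nat.mul_le_mul_left g hτ1
          omega
        · rw [Finset.filter_false_of_mem (fun _ _ => hk)]; simp
      have e4 := hτ0 i
      have : g * ((τ0.disjSum τ1).filter fun x => Sum.elim lev (fun _ => k) x = i).card ≤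
          ((univ : Finset (J ⊕ Fin N)).filter
            fun x => Sum.elim lev (fun _ => k) x = i).card := by
        rw [e1, e2, mul_add]; omega
      exact this
    · intro T hT hTR
      have hc := Finset.card_toLeft_add_card_toRight (u := T)
      obtain ⟨x, hx, hxZ⟩ := hhit0 T.toLeft (by
        rw [Finset.disjoint_left] at hT ⊢
        intro j hj hj'
        exact hT (Finset.mem_toLeft.1 hj) (Finset.inl_mem_disjSum.2 hj')) (by omega)
      obtain ⟨w, hw, hwZ⟩ := hL' x hxZ T.toRight (by
        rw [Finset.disjoint_left] at hT ⊢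
        intro j hj hj'
        exact hT (Finset.mem_toRight.1 hj)
          (Finset.inr_mem_disjSum.2 (mem_biUnion.2 ⟨x, mem_univ _, hj'⟩))) (by omega)
      refine ⟨(x, w), ?_, by simpa [fib] using hwZ⟩
      rintro (j | j) hj
      · simpa using hx j (Finset.mem_toLeft.2 hj)
      · simpa using hw j (Finset.mem_toRight.2 hj)

theorem exists_sys (k g R : ℕ) (B : ℕ → ℕ) :
    ∃ (X J : Type) (_ : Fintype X) (_ : Fintype J) (_ : Nonempty X) (lev : J → ℕ)
      (C : J → Finset X), Spec lev C k g R B := by
  induction k with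
  | zero =>
    refine ⟨Unit, Empty, inferInstance, inferInstance, inferInstance, fun j => j.elim,
      fun j => j.elim, fun j => j.elim, fun i hi => absurd hi (Nat.not_lt_zero _),
      fun j => j.elim, ?_⟩
    intro Z hZ
    have hZ' : Z = ∅ := by
      have : Z.card = 0 := by simpa using hZ
      exact Finset.card_eq_zero.1 this
    refine ⟨∅, fun i => by simp, fun T _ _ => ⟨(), fun j _ => j.elim, by simp [hZ']⟩⟩
  | succ k ih =>
    obtain ⟨X, J, _, _, _, lev, C, hS⟩ := ih
    exact ⟨_, _, inferInstance, inferInstance, inferInstance, _, _, step_spec hS _ _ rfl rfl⟩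

end Vale.Agent.P126
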